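import Vale.Agent.P208.Glue

namespace Vale.Agent.Results.P208.UniformEquivalence

open Vale.Agent.P208

/-- The following are equivalent.
(1) The Lang-Plaut question Q1 has a positive answer.
(2) Q1 holds for compact countable subsets of `ℓ₂` all of whose nonzero points are isolated.
(3) The stronger positive form of Q1: dimension and distortion bounded in terms of the doubling
constant alone.
(4) The stronger positive form for finite sets. -/
theorem result :
    List.TFAE [
      ∀ X : Set Hilb, (∃ L : ℕ, DoublingWith X L) → ∃ k : ℕ, ∃ D : ℝ, EmbedsWith X k D,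
      ∀ X : Set Hilb, IsCompact X → X.Countable →
        (∀ y ∈ X, y ≠ 0 → ∃ ε > 0, ∀ z ∈ X, dist z y < ε → z = y) →
        (∃ L : ℕ, DoublingWith X L) → ∃ k : ℕ, ∃ D : ℝ, EmbedsWith X k D,
      ∀ L : ℕ, ∃ k : ℕ, ∃ D : ℝ, ∀ X : Set Hilb, DoublingWith X L → EmbedsWith X k D,
      ∀ L : ℕ, ∃ k : ℕ, ∃ D : ℝ, ∀ X : Set Hilb, X.Finite → DoublingWith X L →
        EmbedsWith X k D] := by
  tfae_have 1 → 2 := fun h X _ _ _ hX => h X hX
  tfae_have 2 → 4 := by
    intro h L
    by_contra hcon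
    push Not at hcon
    obtain ⟨X, hXd, hXc, hXcount, hXiso, hXe⟩ := exists_bad (L := max L 3) (le_max_right _ _) (by
      intro n
      obtain ⟨F, hF, hFd, hFe⟩ := hcon n n
      refine ⟨F, hF, ?_, hFe⟩
      intro x hx r hr
      obtain ⟨C, h1, h2, h3⟩ := hFd x hx r hr
      exact ⟨C, h1, h2.trans (le_max_left _ _), h3⟩)
    obtain ⟨k, D, hkD⟩ := h X hXc hXcount hXiso ⟨_, hXd⟩
    exact hXe k D hkD
  tfae_have 4 → 3 := by
    intro h L
    obtain ⟨k, D, hkD⟩ := h (L * L)
    refine ⟨k, D, fun X hX => embedsWith_of_finite fun F hF => ?_⟩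
    exact hkD F F.finite_toSet (hX.subset hF)
  tfae_have 3 → 1 := by
    rintro h X ⟨L, hL⟩
    obtain ⟨k, D, hkD⟩ := h L
    exact ⟨k, D, hkD X hL⟩
  tfae_finish

end Vale.Agent.Results.P208.UniformEquivalence
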